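import Vale.Agent.P254.S.EX1.Inv
import Vale.Agent.P254.Bdl.B19
import Vale.Agent.P254.Bdl.B20

/-!
P254, block S-EX1 (helper100): `StmtInvG`, unconditional.
-/

namespace Vale.Agent.P254.S.EX1

open Vale.Agent.P227.M

theorem stmtSC : StmtSC := HL.stmtSC_of_heat SC.stmtHeat

theorem stmtInvG : StmtInvG := stmtInvG_of stmtSC LK.H570.regLL

end Vale.Agent.P254.S.EX1
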