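import Vale.Agent.P254.S.Iface
import Vale.Agent.P254.Bdl.B13

/-!
P254, block S-EX1 (helper100): the class `ClsG k a b m` is invariant under the Sinkhorn map `TG` of the
Gaussian source, for `k` large, with `a = √c₀`, `b = 2 √C₀`.
-/

open MeasureTheory
open scoped ContDiff Topology

namespace Vale.Agent.P254.S.EX1

open Vale.Agent.P227.M
open Vale.Agent.P227.M.MM (phiK)

variable {n : ℕ}

theorem reg_mono {V : E n → ℝ} {c C c' C' : ℝ} (hV : Reg V c C) (h0 : 0 < c') (h1 : c' ≤ c)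
    (h2 : C ≤ C') : Reg V c' C' where
  c_pos := h0
  smooth := hV.smooth
  lower x v := (mul_le_mul_of_nonneg_right h1 (sq_nonneg _)).trans (hV.lower x v)
  upper x v := (hV.upper x v).trans (mul_le_mul_of_nonneg_right h2 (sq_nonneg _))
  bdd := hV.bdd

theorem reg_mulK {c : E n → ℝ} {a b k : ℝ} (h : Reg c a b) (hk : 0 < k) :
    Reg (fun x => k * c x) (k * a) (k * b) := by
  have := LK.Reg.scale h hk one_ne_zero
  simpa using this

theorem Q_eq : (Q : E n → ℝ) = fun z => (1 : ℝ) / 2 * ‖z‖ ^ 2 := by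
  funext z; unfold Q; ring

theorem reg_Q : Reg (Q : E n → ℝ) 1 1 := by
  rw [Q_eq]
  exact (MM.Start102.nice_quad one_pos le_rfl).toReg

theorem reg_addQ {f : E n → ℝ} {c C : ℝ} (hf : Reg f c C) : Reg (fun z => f z + Q z) (c + 1) (C + 1) :=
  LK.Reg.add hf reg_Q

theorem sc_addQ {f : E n → ℝ} {c C κ : ℝ} (hf : Reg f c C) (hκ : 0 ≤ κ) (h : SelfConc κ f) :
    SelfConc κ (fun z => f z + Q z) := by
  have hS := reg_addQ hf
  have hQ : Reg (Q : E n → ℝ) 1 1 := reg_Q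
  rw [LK.selfConc_iff hS.smooth (LK.qf_nonneg_of_reg hS)]
  rw [LK.selfConc_iff hf.smooth (LK.qf_nonneg_of_reg hf)] at h
  intro x v
  have h3 : iteratedFDeriv ℝ 3 (Q : E n → ℝ) x (fun _ => v) = 0 := by
    rw [← LK.iteratedDeriv_line_zero hQ.smooth, Q_eq, MM.Start102.iter3_quad]
  rw [LK.iteratedFDeriv_add' hf.smooth hQ.smooth, LK.qf_add hf.smooth hQ.smooth,
    add_apply, h3, add_zero]
  refine (h x v).trans ?_
  have h4 : √(qf (hess f x) v) ≤ √(qf (hess f x) v + qf (hess Q x) v) :=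
    Real.sqrt_le_sqrt (by have := LK.qf_nonneg_of_reg hQ x v; linarith)
  have h5 : √(qf (hess f x) v) ^ 3 ≤ √(qf (hess f x) v + qf (hess Q x) v) ^ 3 :=
    pow_le_pow_left₀ (Real.sqrt_nonneg _) h4 3
  exact mul_le_mul_of_nonneg_left h5 (by positivity)

section

variable {k a b m : ℝ} {c φ V : E n → ℝ}

theorem reg_phi (hLL : LK.RegLL) (hk : 0 < k) (ha : 0 < a) (hb : 0 < b) (hc : Reg c a b) :
    Reg (phiK k c) b⁻¹ a⁻¹ := by
  have h1 := reg_mulK hc hk
  have h2 := hLL n _ _ _ h1 (by positivity)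
  have h3 := LK.Reg.scale h2 (α := 1 / k) (β := k) (by positivity) hk.ne'
  refine LK.Reg.congr_const h3 ?_ ?_ <;> field_simp

theorem sc_phi (hSC : StmtSC) (hLL : LK.RegLL) (hk : 0 < k) (hb : 0 < b) (hm : 0 ≤ m)
    (hmk : m ^ 2 ≤ k) (hc : Reg c a b) (hs : SelfConc m c) : SelfConc m (phiK k c) := by
  have hsk : 0 < √k := Real.sqrt_pos.2 hk
  have h1 := reg_mulK hc hk
  have h1s := LK.SelfConc.mulK hc hs hk
  have h2 := hLL n _ _ _ h1 (by positivity)
  have hle : m / √k ≤ 1 := by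
    rw [div_le_one hsk]
    exact Real.le_sqrt_of_sq_le hmk
  have h2s := hSC n _ _ _ _ h1 (by positivity) hle h1s
  have h3 := LK.SelfConc.scale h2 h2s (α := 1 / k) (β := k) (by positivity) hk.ne'
  have h4 : m / √k / √(1 / k) = m := by
    rw [Real.sqrt_div zero_le_one, Real.sqrt_one]
    field_simp
  rw [h4] at h3
  exact h3

/-- `k ψ_k` -/
noncomputable def qG (k : ℝ) (φ : E n → ℝ) (x : E n) : ℝ :=
  logLap (fun z => k * φ z + Q z) (k • x)

theorem reg_qG (hLL : LK.RegLL) (hk : 0 < k) (ha : 0 < a) (hb : 0 < b) (hφ : Reg φ b⁻¹ a⁻¹) :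
    Reg (qG k φ) (k ^ 2 * a / (k + a)) (k ^ 2 * b / (k + b)) := by
  have h1 := reg_addQ (reg_mulK hφ hk)
  have h2 := hLL n _ _ _ h1 (by positivity)
  have h3 := LK.Reg.scale h2 (α := 1) (β := k) one_pos hk.ne'
  simp only [one_mul] at h3
  refine LK.Reg.congr_const h3 ?_ ?_
  · field_simp
  · field_simp

theorem sc_qG (hSC : StmtSC) (hLL : LK.RegLL) (hk : 0 < k) (ha : 0 < a) (hb : 0 < b) (hm : 0 ≤ m)
    (hmk : m ^ 2 ≤ k) (hφ : Reg φ b⁻¹ a⁻¹) (hs : SelfConc m φ) : SelfConc (m / √k) (qG k φ) := by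
  have hsk : 0 < √k := Real.sqrt_pos.2 hk
  have h0 := reg_mulK hφ hk
  have h0s := LK.SelfConc.mulK hφ hs hk
  have h1 := reg_addQ h0
  have h1s := sc_addQ h0 (by positivity) h0s
  have h2 := hLL n _ _ _ h1 (by positivity)
  have hle : m / √k ≤ 1 := by
    rw [div_le_one hsk]
    exact Real.le_sqrt_of_sq_le hmk
  have h2s := hSC n _ _ _ _ h1 (by positivity) hle h1s
  have h3s := LK.SelfConc.scale h2 h2s (α := 1) (β := k) one_pos hk.ne'
  simp only [one_mul, Real.sqrt_one, div_one] at h3s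
  exact h3s

/-- **the map preserves the class** -/
theorem TG_mem (hSC : StmtSC) (hLL : LK.RegLL) {c₀ C₀ MV : ℝ} (hV : Reg V c₀ C₀) (hC₀ : 0 < C₀)
    (hMV : 0 ≤ MV) (hVs : SelfConc MV V) (ha : 0 < a) (hb : 0 < b) (ha2 : a ^ 2 ≤ c₀)
    (hb2 : 4 * C₀ ≤ b ^ 2) (hm : 2 / 3 * MV * √(C₀ / (a / 2)) ≤ m) (hk : 0 < k) (hmk : m ^ 2 ≤ k)
    (hak : a ≤ k) (hbk : b ≤ k) (hc : ClsG k a b m c) : ClsG k a b m (TG k V c) := by
  have hm0 : 0 ≤ m := le_trans (by positivity) hm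
  have hsk : 0 < √k := Real.sqrt_pos.2 hk
  have hφ := reg_phi hLL hk ha hb hc.reg
  have hφs := sc_phi hSC hLL hk hb hm0 hmk hc.reg hc.sc
  have hQ := reg_qG hLL hk ha hb hφ
  have hQs := sc_qG hSC hLL hk ha hb hm0 hmk hφ hφs
  have hS : Reg (fun x => V x + qG k (phiK k c) x) (c₀ + k ^ 2 * a / (k + a))
      (C₀ + k ^ 2 * b / (k + b)) := LK.Reg.add hV hQ
  have hkl : k * (a / 2) ≤ k ^ 2 * a / (k + a) := by
    rw [le_div_iff₀ (by positivity)]
    nlinarith [mul_pos hk ha]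
  have hSs : SelfConc (m / √k) (fun x => V x + qG k (phiK k c) x) := by
    rw [LK.selfConc_iff hS.smooth (LK.qf_nonneg_of_reg hS)]
    rw [LK.selfConc_iff hV.smooth (LK.qf_nonneg_of_reg hV)] at hVs
    rw [LK.selfConc_iff hQ.smooth (LK.qf_nonneg_of_reg hQ)] at hQs
    intro x v
    rw [LK.iteratedFDeriv_add' hV.smooth hQ.smooth, LK.qf_add hV.smooth hQ.smooth]
    exact LK.sum_ineq hk hm0 hMV (by positivity : 0 < a / 2) hC₀.le hm (N := ‖v‖ ^ 2)
      (by positivity) (LK.qf_nonneg_of_reg hV x v) (hV.upper x v)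
      ((mul_le_mul_of_nonneg_right hkl (by positivity)).trans (hQ.lower x v)) (hVs x v) (hQs x v)
  have hD := LK.Reg.scale hS (α := 1 / k) (β := 1) (by positivity) one_ne_zero
  have hDs := LK.SelfConc.scale hS hSs (α := 1 / k) (β := 1) (by positivity) one_ne_zero
  simp only [one_smul, one_pow, mul_one] at hD hDs
  have hTeq : TG k V c = fun x => 1 / k * (V x + qG k (phiK k c) x)
      - (psiG k (phiK k c) 0 + V 0 / k) := by
    funext x
    unfold TG psiG qG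
    ring
  have h4 : m / √k / √(1 / k) = m := by
    rw [Real.sqrt_div zero_le_one, Real.sqrt_one]
    field_simp
  rw [h4] at hDs
  refine ⟨?_, ?_, ?_⟩
  · rw [hTeq]
    refine reg_mono (LK.Reg.sub_const hD _) ha ?_ ?_
    · rw [one_div, inv_mul_eq_div, le_div_iff₀ hk, ← sub_le_iff_le_add', le_div_iff₀ (by positivity)]
      nlinarith [mul_pos hk ha, mul_pos ha ha, mul_nonneg (sub_nonneg.2 ha2) (add_pos hk ha).le,
        pow_pos ha 3]
    · rw [one_div, inv_mul_eq_div, div_le_iff₀ hk, ← le_sub_iff_add_le', div_le_iff₀ (by positivity)]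
      nlinarith [mul_pos hk hb, mul_pos hb hb, mul_nonneg (sub_nonneg.2 hb2) (add_pos hk hb).le,
        mul_nonneg (sub_nonneg.2 hbk) (mul_pos hb hb).le]
  · rw [hTeq]
    exact LK.SelfConc.sub_const hD hDs _
  · simp [TG]

end

/-- **S-EX1** -/
theorem stmtInvG_of (hSC : StmtSC) (hLL : LK.RegLL) : StmtInvG := by
  intro n hn V c₀ C₀ hV
  obtain ⟨MV, hMV, hVs⟩ := LK.Reg.exists_selfConc hV
  have hc0 : 0 < c₀ := hV.c_pos
  have hcC : c₀ ≤ C₀ := MM.nice_le hn hV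
  have hC0 : 0 < C₀ := hc0.trans_le hcC
  have ha : 0 < √c₀ := Real.sqrt_pos.2 hc0
  have hb : 0 < 2 * √C₀ := by have := Real.sqrt_pos.2 hC0; positivity
  have hab : √c₀ ≤ 2 * √C₀ := by
    have h1 := Real.sqrt_le_sqrt hcC
    have h2 := Real.sqrt_nonneg C₀
    linarith
  set a := √c₀ with hadef
  set b := 2 * √C₀ with hbdef
  set m := 2 / 3 * MV * √(C₀ / (a / 2)) with hmdef
  have hm0 : 0 ≤ m := by positivity
  refine ⟨a, b, m, max (max 1 (m ^ 2)) (max a b), ha, hab, hm0,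
    (le_max_left _ _).trans (le_max_left _ _), fun k hk => ?_⟩
  have hk1 : 1 ≤ k := ((le_max_left _ _).trans (le_max_left _ _)).trans hk
  have hmk : m ^ 2 ≤ k := ((le_max_right _ _).trans (le_max_left _ _)).trans hk
  have hak : a ≤ k := ((le_max_left _ _).trans (le_max_right _ _)).trans hk
  have hbk : b ≤ k := ((le_max_right _ _).trans (le_max_right _ _)).trans hk
  have hk0 : 0 < k := by linarith
  refine ⟨⟨(MM.Start102.nice_quad ha hab).toReg, MM.Start102.selfConc_quad ha.le hm0, by simp⟩,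
    fun c hc => ?_, fun c hc => ⟨reg_phi hLL hk0 ha hb hc.reg,
      sc_phi hSC hLL hk0 hb hm0 hmk hc.reg hc.sc⟩⟩
  refine TG_mem hSC hLL hV hC0 hMV hVs ha hb ?_ ?_ le_rfl hk0 hmk hak hbk hc
  · rw [hadef, Real.sq_sqrt hc0.le]
  · rw [hbdef, mul_pow, Real.sq_sqrt hC0.le]
    linarith

end Vale.Agent.P254.S.EX1
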